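import Vale.Agent.P180.R2.H471.Ex1
import Vale.Agent.P180.R2.H259.Exp.LevA
import Vale.Agent.P180.R2.H954.Hf3

/-!
P180: the isometries which stabilise a selfdual decomposition; their blocks.
-/

set_option linter.all false

namespace Vale.Agent.P180.R2.H259.Iso

open Module Vale.Agent.P180 Vale.Agent.P180.H768.Gd Vale.Agent.P180.R2.H799
  Vale.Agent.P180.R2.H854 Vale.Agent.P180.R2.H954 Vale.Agent.P180.R2.H954.Hc
  Vale.Agent.P180.R2.H471.He Vale.Agent.P180.R2.H471.Ex Vale.Agent.P180.R2.H259.Exp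
open Vale.Agent.P180.R2.H471.Hc (OneBd)
open Vale.Agent.P180.R2.H799.BV (glB)

universe u

section Comb

/-- the pairs -/
def sj {r : ℕ} (j : Fin r) : Finset (Fin r) := if Fin.rev j < j then ∅ else {j, Fin.rev j}

variable {r : ℕ}

theorem mem_sj {j l : Fin r} : l ∈ sj j ↔ ¬ Fin.rev j < j ∧ (l = j ∨ l = Fin.rev j) := by
  unfold sj
  split_ifs with h
  · simp [h]
  · simp [h]

theorem sj_image (j : Fin r) : (sj j).image Fin.rev = sj j := by
  ext l
  rw [Finset.mem_image]
  constructor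
  · rintro ⟨i, hi, rfl⟩
    rw [mem_sj] at hi ⊢
    refine ⟨hi.1, ?_⟩
    rcases hi.2 with rfl | rfl
    · exact Or.inr rfl
    · exact Or.inl (Fin.rev_rev _)
  · intro hl
    rw [mem_sj] at hl
    refine ⟨Fin.rev l, ?_, Fin.rev_rev _⟩
    rw [mem_sj]
    refine ⟨hl.1, ?_⟩
    rcases hl.2 with rfl | rfl
    · exact Or.inr rfl
    · exact Or.inl (Fin.rev_rev _)

theorem sj_disj {i j : Fin r} (hij : i ≠ j) : Disjoint (sj i) (sj j) := by
  rw [Finset.disjoint_left]
  intro l hi hj
  rw [mem_sj] at hi hj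
  obtain ⟨hi, hi'⟩ := hi
  obtain ⟨hj, hj'⟩ := hj
  rw [not_lt] at hi hj
  rcases hi' with rfl | rfl
  · rcases hj' with h | h
    · exact hij h
    · rw [h, Fin.rev_rev] at hi
      exact hij (h.trans (le_antisymm hi hj))
  · rcases hj' with h | h
    · rw [← h, Fin.rev_rev] at hj
      exact hij (le_antisymm (by rw [← h]; exact hi) (by rw [← h]; exact hj))
    · exact hij (Fin.rev_injective h)

theorem sj_union : (Finset.univ : Finset (Fin r)).biUnion sj = Finset.univ := by
  ext l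
  simp only [Finset.mem_biUnion, Finset.mem_univ, true_and, iff_true]
  by_cases h : Fin.rev l < l
  · refine ⟨Fin.rev l, ?_⟩
    rw [mem_sj, Fin.rev_rev]
    exact ⟨lt_asymm h, Or.inr rfl⟩
  · exact ⟨l, mem_sj.mpr ⟨h, Or.inl rfl⟩⟩

end Comb

variable {K E : Type} [Field K] [AddCommGroup E] [Module K E]

section Es

variable {Q : Subgroup (SpecialLinearGroup K E)} {D : Dec Q}

theorem es_disj {s t : Finset (Fin D.r)} (h : Disjoint s t) : D.es s * D.es t = 0 := by
  conv_lhs => rw [Dec.es, Finset.sum_mul]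
  exact Finset.sum_eq_zero fun i hi =>
    Dec.e_mul_es_of_notMem (Finset.disjoint_left.mp h hi)

theorem sum_es : ∑ j, D.es (sj j) = 1 := by
  have h1 : ∑ j, D.es (sj j) = D.es ((Finset.univ : Finset (Fin D.r)).biUnion sj) := by
    unfold Dec.es
    exact (Finset.sum_biUnion fun i _ j _ hij => sj_disj hij).symm
  rw [h1, sj_union, Dec.es_univ]

end Es

variable [Finite K] [FiniteDimensional K E]
variable {Φ : HForm K E} {Q : Subgroup (SpecialLinearGroup K E)}

/-- the isometries which stabilise the decomposition -/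
noncomputable def LI (D : SDec Φ Q) : Subgroup (End K E)ˣ where
  carrier := {g | St D.toDec (g : End K E) ∧ Φ.adj (g : End K E) * g = 1}
  one_mem' := ⟨by rw [Units.val_one]; exact St.one, by rw [Units.val_one, Φ.adj_one, one_mul]⟩
  mul_mem' := by
    rintro g h ⟨hg, hg'⟩ ⟨hh, hh'⟩
    refine ⟨by rw [Units.val_mul]; exact hg.mul hh, ?_⟩
    rw [Units.val_mul, Φ.adj_mul]
    calc Φ.adj (h : End K E) * Φ.adj (g : End K E) * (g * h)
        = Φ.adj (h : End K E) * (Φ.adj (g : End K E) * g) * h := by simp only [mul_assoc]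
      _ = 1 := by rw [hg', mul_one, hh']
  inv_mem' := by
    rintro g ⟨hg, hg'⟩
    refine ⟨hg.inv, ?_⟩
    have h1 : Φ.adj (g : End K E) = ((g⁻¹ : (End K E)ˣ) : End K E) := by
      calc Φ.adj (g : End K E) = Φ.adj (g : End K E) * g * ((g⁻¹ : (End K E)ˣ) : End K E) := by
            rw [mul_assoc, Units.mul_inv, mul_one]
        _ = _ := by rw [hg', one_mul]
    rw [← h1, Φ.adj_adj, h1, Units.mul_inv]

variable {D : SDec Φ Q}

theorem adj_LI {g : (End K E)ˣ} (hg : g ∈ LI D) :
    Φ.adj (g : End K E) = ((g⁻¹ : (End K E)ˣ) : End K E) := by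
  calc Φ.adj (g : End K E) = Φ.adj (g : End K E) * g * ((g⁻¹ : (End K E)ˣ) : End K E) := by
        rw [mul_assoc, Units.mul_inv, mul_one]
    _ = _ := by rw [hg.2, one_mul]

/-- the components are isometries -/
theorem cp_LI {g : (End K E)ˣ} (hg : g ∈ LI D) {s : Finset (Fin D.r)}
    (hs : s.image Fin.rev = s) :
    ∃ y ∈ LI D, (y : End K E) = (g : End K E) * D.es s + (1 - D.es s) := by
  obtain ⟨y, hy⟩ := cpE_unit (D := D.toDec) (s := s) hg.1
  refine ⟨y, ⟨by rw [hy]; exact cpE_St hg.1, ?_⟩, hy⟩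
  have h1 : Φ.adj (cpE D.toDec s (g : End K E)) =
      cpE D.toDec s ((g⁻¹ : (End K E)ˣ) : End K E) := by
    rw [cpE, cpE, Φ.adj_add, Φ.adj_mul, Φ.adj_sub, Φ.adj_one, SDec.adj_es, hs, adj_LI hg,
      hg.1.inv.es s]
  rw [hy, h1, ← cpE_mul hg.1.inv hg.1, Units.inv_mul, cpE_one]

/-- the family of idempotents -/
noncomputable def famI (D : SDec Φ Q) : Fam D.r (LI D) where
  e j := D.es (sj j)
  idem j := Dec.es_idem _
  orth i j hij := es_disj (sj_disj hij)
  sum := sum_es
  comm g hg j := hg.1.es _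
  cmp g hg j := cp_LI hg (sj_image j)

theorem map_le_LI (hQ : ∀ q ∈ Q, St D.toDec (toEnd q)) : Q.map (slu K E) ≤ LI D := by
  rintro _ ⟨q, hq, rfl⟩
  exact ⟨hQ q hq, (Φ.mem_Iso_iff).mp (D.le hq)⟩

theorem cyc_LI (hab : ∀ x ∈ Q, ∀ y ∈ Q, x * y = y * x) (j : Fin D.r) :
    ∃ (F : Type) (_ : Field F) (_ : Finite F) (χ : (Q.map (slu K E)) →* Fˣ),
      ∀ q : Q.map (slu K E), χ q = 1 ↔
        (((q : (End K E)ˣ) : End K E)) * (famI D).e j = (famI D).e j := by
  classical
  obtain ⟨F, _, _, χ, hχ⟩ := D.cyc j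
  by_cases hj : Fin.rev j < j
  · refine ⟨F, inferInstance, inferInstance, 1, fun q => ?_⟩
    have h1 : (famI D).e j = 0 := by
      change D.es (sj j) = 0
      unfold sj
      rw [if_pos hj]
      exact Finset.sum_empty
    rw [h1, mul_zero]
    exact ⟨fun _ => rfl, fun _ => rfl⟩
  · let ε : Q ≃* Q.map (slu K E) := Q.equivMapOfInjective (slu K E) slu_injective
    refine ⟨F, inferInstance, inferInstance, χ.comp ε.symm.toMonoidHom, fun q => ?_⟩
    obtain ⟨q, rfl⟩ := ε.surjective q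
    have h0 : (χ.comp ε.symm.toMonoidHom) (ε q) = χ q := by
      change χ (ε.symm (ε q)) = χ q
      rw [MulEquiv.symm_apply_apply]
    have h0' : (((ε q : Q.map (slu K E)) : (End K E)ˣ) : End K E) =
        toEnd (q : SpecialLinearGroup K E) := rfl
    rw [h0, h0', hχ]
    have hqL : (q : SpecialLinearGroup K E) ∈ D.L := ⟨D.toDec.Q_le hab q.2, D.le q.2⟩
    have h1 : ∀ a : End K E, a * D.es (sj j) = D.es (sj j) ↔
        a * D.e j = D.e j ∧ a * D.e (Fin.rev j) = D.e (Fin.rev j) := by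
      intro a
      have hj1 : j ∈ sj j := mem_sj.mpr ⟨hj, Or.inl rfl⟩
      have hj2 : Fin.rev j ∈ sj j := mem_sj.mpr ⟨hj, Or.inr rfl⟩
      have hcomm : ∀ l ∈ sj j, D.es (sj j) * D.e l = D.e l := by
        intro l hl
        rw [Dec.es, Finset.sum_mul, Finset.sum_eq_single l]
        · exact D.idem l
        · intro i _ hi
          exact D.orth i l hi
        · intro h; exact absurd hl h
      constructor
      · intro h
        constructor
        · conv_lhs => rw [← hcomm j hj1]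
          rw [← mul_assoc, h, hcomm j hj1]
        · conv_lhs => rw [← hcomm _ hj2]
          rw [← mul_assoc, h, hcomm _ hj2]
      · rintro ⟨h, h'⟩
        rw [Dec.es, Finset.mul_sum]
        refine Finset.sum_congr rfl fun l hl => ?_
        rcases (mem_sj.mp hl).2 with rfl | rfl
        · exact h
        · exact h'
    constructor
    · intro h
      exact (h1 _).mpr ⟨h, SDec.triv_rev hqL h⟩
    · intro h
      exact ((h1 _).mp h).1

/-- **The blocks of the group of isometries which stabilise the decomposition.** -/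
theorem oneBd_LI {k : Type u} [Field k] [IsAlgClosed k] {p : ℕ} [Fact p.Prime] [CharP k p]
    [Finite (End K E)ˣ] {n : ℕ} (hQ : IsPGroup p Q)
    (hQn : Nat.card Q ≤ n) (hab : ∀ x ∈ Q, ∀ y ∈ Q, x * y = y * x) (D : SDec Φ Q)
    (hr : D.r ≤ n) : OneBd k ((Q.map (slu K E)).subgroupOf (LI D)) (glB p n) := by
  refine oneBd_fam (famI D) (hQ.map (slu K E)) ?_
    (map_le_LI fun q hq => D.toDec.Q_le hab hq) hr (cyc_LI hab)
  exact (Nat.card_congr (Q.equivMapOfInjective _ slu_injective).toEquiv).symm.le.trans hQn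

end Vale.Agent.P180.R2.H259.Iso
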