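import Vale.Agent.P180.R2.H259.Iso.F1
import Vale.Agent.P180.R2.H854.FormX
import Vale.Agent.P180.R2.H954.Hf4
import Vale.Agent.P180.R2.H954.Hf2
import Vale.Agent.P180.R2.H259.Exp.LevD

/-!
P180: descent to the special isometry group and to a subgroup of index at most two.
-/

set_option linter.all false

namespace Vale.Agent.P180.R2.H259.Iso

open Module Vale.Agent.P180 Vale.Agent.P180.H768.Gd Vale.Agent.P180.R2.H799
  Vale.Agent.P180.R2.H854 Vale.Agent.P180.R2.H954 Vale.Agent.P180.R2.H954.Hc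
  Vale.Agent.P180.R2.H471.He Vale.Agent.P180.R2.H471.Ex Vale.Agent.P180.R2.H259.Exp
open Vale.Agent.P180.R2.H471.Hc (OneBd)
open Vale.Agent.P180.R2.H799.BV (glB)

universe u

section Gen

variable {k : Type u} [Field k] [IsAlgClosed k] {p : ℕ} [Fact p.Prime] [CharP k p]

/-- transport along an isomorphism -/
theorem oneBd_tr {G G' : Type} [Group G] [Finite G] [Group G'] [Finite G'] (f : G →* G')
    (hs : Function.Surjective f) (hi : ∀ x, f x = 1 → x = 1) {Q : Subgroup G} (hQ : IsPGroup p Q)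
    {Q' : Subgroup G'} (hQ' : Q.map f = Q') {C : ℕ} (h : OneBd k Q C) : OneBd k Q' C := by
  have hp : p.Prime := Fact.out
  have hkc : ¬ p ∣ Nat.card f.ker := by
    have h1 : f.ker = ⊥ := by
      rw [eq_bot_iff]
      intro x hx
      exact Subgroup.mem_bot.mpr (hi x (MonoidHom.mem_ker.mp hx))
    rw [h1, Subgroup.card_bot]
    exact hp.one_lt.not_ge ∘ Nat.le_of_dvd Nat.one_pos
  have h1 := Vale.Agent.P180.R2.H471.Hc.oneBd_quot (k := k) (p := p) hs
    (fun x hx g => by rw [hi x hx, one_mul, mul_one]) hkc hQ h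
  rwa [hQ'] at h1

omit [IsAlgClosed k] in
/-- A subgroup of index at most two is the kernel of a linear character. -/
theorem exists_chi_two {G : Type} [Group G] {H : Subgroup G} (hH : H.index ∣ 2) (hp : p ≠ 2) :
    ∃ χ : G →* kˣ, χ.ker = H := by
  classical
  rcases (Nat.dvd_prime Nat.prime_two).mp hH with h1 | h2
  · refine ⟨1, ?_⟩
    rw [Subgroup.index_eq_one] at h1
    rw [h1]
    ext x
    simp
  · have hne : ((-1 : kˣ)) ≠ 1 := by
      intro h
      have h3 : (-1 : k) = 1 := by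
        have := congrArg Units.val h
        rwa [Units.val_neg, Units.val_one] at this
      have h4 : (2 : k) = 0 := by
        have : (1 : k) + 1 = 0 := by
          nth_rewrite 1 [← h3]
          exact neg_add_cancel 1
        rw [← this]
        norm_num
      have h5 : ((2 : ℕ) : k) = 0 := by exact_mod_cast h4
      rw [CharP.cast_eq_zero_iff k p] at h5
      rcases (Nat.dvd_prime Nat.prime_two).mp h5 with h6 | h6
      · exact (Fact.out : p.Prime).one_lt.ne' h6
      · exact hp h6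
    refine ⟨{ toFun := fun g => if g ∈ H then 1 else -1
              map_one' := if_pos H.one_mem
              map_mul' := ?_ }, ?_⟩
    · intro x y
      have h3 := Subgroup.mul_mem_iff_of_index_two h2 (a := x) (b := y)
      by_cases hx : x ∈ H <;> by_cases hy : y ∈ H <;> simp [h3, hx, hy]
    · ext x
      rw [MonoidHom.mem_ker]
      change (if x ∈ H then (1 : kˣ) else -1) = 1 ↔ x ∈ H
      split_ifs with h
      · exact ⟨fun _ => h, fun _ => rfl⟩
      · exact ⟨fun h3 => absurd h3 hne, fun h3 => absurd h3 h⟩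

end Gen

variable {K E : Type} [Field K] [AddCommGroup E] [Module K E] [Finite K] [FiniteDimensional K E]
variable {Φ : HForm K E} {Q : Subgroup (SpecialLinearGroup K E)}

theorem ringChar_prime (K : Type) [Field K] [Finite K] : (ringChar K).Prime := by
  rcases CharP.char_is_prime_or_zero K (ringChar K) with h | h
  · exact h
  · exfalso
    have g1 : CharZero K := by
      have := ringChar.charP K
      rw [h] at this
      exact CharP.charP_to_charZero K
    exact (not_finite K).elim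

/-- the automorphism of the field is a power -/
theorem exists_frobK (θ : K →+* K) : ∃ j : ℕ, ∀ c, θ c = c ^ (ringChar K ^ j) := by
  have : Fact (ringChar K).Prime := ⟨ringChar_prime K⟩
  have := ringChar.charP K
  exact exists_frob (r := ringChar K) θ

/-- if the form contains a `p`-th root of unity fixed by the automorphism -/
theorem lin_of_root {p : ℕ} (hp : p.Prime) (hp2 : p ≠ 2) {θ : K →+* K} {ζ : K} (hζ : ζ ^ p = 1)
    (hζ1 : ζ ≠ 1) (hζθ : θ ζ = ζ) (j : ℕ) (hj : ∀ c, θ c = c ^ (ringChar K ^ j)) :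
    ¬ p ∣ ringChar K ^ j + 1 := by
  intro h
  have : Fact p.Prime := ⟨hp⟩
  have hord : orderOf ζ = p := orderOf_eq_prime hζ hζ1
  have h1 : ζ ^ (ringChar K ^ j) = ζ := by rw [← hj, hζθ]
  obtain ⟨c, hc⟩ := h
  have h2 : ζ ^ (ringChar K ^ j + 1) = 1 := by rw [hc, pow_mul, hζ, one_pow]
  rw [pow_succ, h1, ← sq] at h2
  have h3 := orderOf_dvd_of_pow_eq_one h2
  rw [hord] at h3
  rcases (Nat.dvd_prime Nat.prime_two).mp h3 with h6 | h6
  · exact hp.one_lt.ne' h6
  · exact hp2 h6

/-- the determinant -/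
noncomputable def detI (D : SDec Φ Q) : LI D →* Kˣ :=
  (Units.map (LinearMap.det : (E →ₗ[K] E) →* K)).comp (LI D).subtype

theorem mem_detI_ker {D : SDec Φ Q} {g : LI D} :
    g ∈ (detI D).ker ↔ LinearMap.det ((g : (End K E)ˣ) : End K E) = 1 := by
  rw [MonoidHom.mem_ker, Units.ext_iff]
  rfl

theorem detI_pow {D : SDec Φ Q} {j : ℕ} (hj : ∀ c, Φ.θ c = c ^ (ringChar K ^ j)) (g : LI D) :
    detI D g ^ (ringChar K ^ j + 1) = 1 := by
  apply Units.ext
  rw [Units.val_pow_eq_pow_val]
  change LinearMap.det ((g : (End K E)ˣ) : End K E) ^ (ringChar K ^ j + 1) = 1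
  have h1 := congrArg LinearMap.det g.2.2
  rw [map_mul, det_adj, hj, ← pow_succ, map_one] at h1
  exact h1

/-- the isomorphism on elements -/
noncomputable def tiF (D : SDec Φ Q) (g : (detI D).ker) : D.L :=
  ⟨mkSL (((g : LI D) : (End K E)ˣ) : End K E) (mem_detI_ker.mp g.2),
    ⟨fun i => by rw [toEnd_mkSL]; exact g.1.2.1 i, (Φ.mem_Iso_iff).mpr (by
      rw [toEnd_mkSL]; exact g.1.2.2)⟩⟩

theorem toEnd_tiF (D : SDec Φ Q) (g : (detI D).ker) :
    toEnd ((tiF D g : D.L) : SpecialLinearGroup K E) =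
      (((g : LI D) : (End K E)ˣ) : End K E) :=
  toEnd_mkSL (((g : LI D) : (End K E)ˣ) : End K E) (mem_detI_ker.mp g.2)

/-- the isomorphism -/
noncomputable def ti (D : SDec Φ Q) : (detI D).ker →* D.L where
  toFun := tiF D
  map_one' := by
    apply Subtype.ext
    apply toEnd_injective
    rw [toEnd_tiF]
    exact toEnd_one.symm
  map_mul' x y := by
    apply Subtype.ext
    apply toEnd_injective
    change _ = toEnd (((tiF D x : D.L) : SpecialLinearGroup K E) *
      ((tiF D y : D.L) : SpecialLinearGroup K E))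
    rw [toEnd_tiF, toEnd_mul, toEnd_tiF, toEnd_tiF]
    rfl

section Main

variable {k : Type u} [Field k] [IsAlgClosed k] {p : ℕ} [Fact p.Prime] [CharP k p]

/-- **The blocks of the stabiliser in the special isometry group.** -/
theorem oneBd_L [Finite (SpecialLinearGroup K E)] (hQ : IsPGroup p Q) {n : ℕ}
    (hQn : Nat.card Q ≤ n) (hab : ∀ x ∈ Q, ∀ y ∈ Q, x * y = y * x) (D : SDec Φ Q)
    (hr : D.r ≤ n)
    (hlin : ∀ j : ℕ, (∀ c : K, Φ.θ c = c ^ (ringChar K ^ j)) → ¬ p ∣ ringChar K ^ j + 1) :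
    OneBd k (Q.subgroupOf D.L) (n.factorial * glB p n) := by
  classical
  have hfE : Finite (End K E) := by
    have h1 : Finite E := Module.finite_of_finite K
    exact Finite.of_injective (fun f : End K E => (f : E → E)) DFunLike.coe_injective
  have hfU : Finite (End K E)ˣ := Finite.of_injective (Units.val) Units.val_injective
  obtain ⟨j, hj⟩ := exists_frobK Φ.θ
  have hLI := oneBd_LI (k := k) (p := p) hQ hQn hab D hr
  have hle : Q.map (slu K E) ≤ LI D := map_le_LI fun q hq => D.toDec.Q_le hab hq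
  set Q₁ : Subgroup (LI D) := (Q.map (slu K E)).subgroupOf (LI D) with hQ₁
  have hQ₁p : IsPGroup p Q₁ :=
    (hQ.map (slu K E)).comap_of_injective (LI D).subtype (LI D).subtype_injective
  obtain ⟨χ, hχ⟩ := Vale.Agent.P180.R2.H259.Exp.exists_chi (k := k) (p := p) (detI D) (hlin j hj) (detI_pow hj)
  have hQH : Q₁ ≤ (detI D).ker := by
    intro g hg
    rw [mem_detI_ker]
    obtain ⟨q, hq, hqg⟩ := Subgroup.mem_subgroupOf.mp hg
    have h1 : LinearMap.det (toEnd q) = 1 := q.det_eq_one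
    have h2 : ((g : (End K E)ˣ) : End K E) = toEnd q := (congrArg Units.val hqg).symm
    rw [h2, h1]
  set Q₂ : Subgroup (detI D).ker := Q₁.subgroupOf (detI D).ker with hQ₂
  have hmap : Q₂.map (detI D).ker.subtype = Q₁ := Subgroup.map_subgroupOf_eq_of_le hQH
  have hQ₂p : IsPGroup p Q₂ := hQ₁p.comap_of_injective _ (detI D).ker.subtype_injective
  have hker := oneBd_ker (k := k) (p := p) χ hχ (Q := Q₂) hQ₂p (by rw [hmap]; exact hLI)
  -- the isomorphism
  have hθ : ∀ g : (detI D).ker, toEnd ((ti D g : D.L) : SpecialLinearGroup K E) =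
      (((g : LI D) : (End K E)ˣ) : End K E) := fun g => toEnd_tiF D g
  have hinj : ∀ x, ti D x = 1 → x = 1 := by
    intro x hx
    apply Subtype.ext
    apply Subtype.ext
    apply Units.ext
    rw [← hθ x, hx]
    exact toEnd_one
  have hsurj : Function.Surjective (ti D) := by
    intro l
    have hlL : slu K E (l : SpecialLinearGroup K E) ∈ LI D :=
      ⟨fun i => l.2.1 i, (Φ.mem_Iso_iff).mp l.2.2⟩
    refine ⟨⟨⟨slu K E l, hlL⟩, ?_⟩, ?_⟩
    · rw [mem_detI_ker]
      exact l.1.det_eq_one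
    · apply Subtype.ext
      apply toEnd_injective
      rw [hθ]
      rfl
  have hmapθ : Q₂.map (ti D) = Q.subgroupOf D.L := by
    ext l
    constructor
    · rintro ⟨g, hg, rfl⟩
      obtain ⟨q, hq, hqg⟩ := Subgroup.mem_subgroupOf.mp (Subgroup.mem_subgroupOf.mp hg)
      rw [Subgroup.mem_subgroupOf]
      have h1 : ((ti D g : D.L) : SpecialLinearGroup K E) = q := by
        apply toEnd_injective
        rw [hθ]
        exact (congrArg Units.val hqg).symm
      rw [h1]; exact hq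
    · intro hl
      obtain ⟨g, rfl⟩ := hsurj l
      refine ⟨g, ?_, rfl⟩
      refine Subgroup.mem_subgroupOf.mpr (Subgroup.mem_subgroupOf.mpr ⟨_, hl, ?_⟩)
      apply Units.ext
      exact hθ g
  have hfin := oneBd_tr (k := k) (p := p) (ti D) hsurj hinj hQ₂p hmapθ hker
  intro e x he hx hex hbr
  obtain ⟨i, h1, h2, h3, h4, h5⟩ := hfin e x he hx hex hbr
  refine ⟨i, h1, h2, h3, h4, h5.trans ?_⟩
  refine Nat.mul_le_mul_right _ (Nat.factorial_le ?_)
  refine le_trans ?_ hQn
  have h6 : Nat.card Q₂ = Nat.card Q₁ :=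
    Nat.card_congr (Subgroup.subgroupOfEquivOfLe hQH).toEquiv
  rw [h6, hQ₁, Nat.card_congr (Subgroup.subgroupOfEquivOfLe hle).toEquiv]
  exact le_of_eq (Nat.card_congr (Q.equivMapOfInjective _ slu_injective).toEquiv).symm

/-- **The blocks of the stabiliser in a subgroup of index at most two.** -/
theorem oneBd_M [Finite (SpecialLinearGroup K E)] {X : Subgroup (SpecialLinearGroup K E)}
    (hXI : X ≤ Φ.Iso) (hX2 : X.relIndex Φ.Iso ∣ 2) (hp2 : p ≠ 2) {Q : Subgroup X}
    (hQ : IsPGroup p Q) {n : ℕ} (hQn : Nat.card Q ≤ n)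
    (hab : ∀ x ∈ Q, ∀ y ∈ Q, x * y = y * x) (D : SDec Φ (Q.map X.subtype)) (hr : D.r ≤ n)
    (hlin : ∀ j : ℕ, (∀ c : K, Φ.θ c = c ^ (ringChar K ^ j)) → ¬ p ∣ ringChar K ^ j + 1)
    {M : Subgroup X} (hM : ∀ x : X, x ∈ M ↔ (x : SpecialLinearGroup K E) ∈ D.L) :
    OneBd k (Q.subgroupOf M) (n.factorial * (n.factorial * glB p n)) := by
  classical
  have hQ' : IsPGroup p (Q.map X.subtype) := hQ.map _
  have hcard : Nat.card (Q.map X.subtype) = Nat.card Q :=
    (Nat.card_congr (Q.equivMapOfInjective _ X.subtype_injective).toEquiv).symm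
  have hab' : ∀ x ∈ Q.map X.subtype, ∀ y ∈ Q.map X.subtype, x * y = y * x := by
    rintro _ ⟨x, hx, rfl⟩ _ ⟨y, hy, rfl⟩
    exact congrArg Subtype.val (hab x hx y hy)
  have hL := oneBd_L (k := k) (p := p) hQ' (hcard.le.trans hQn) hab' D hr hlin
  -- the character
  have hX2' : (X.subgroupOf Φ.Iso).index ∣ 2 := hX2
  obtain ⟨χ₀, hχ₀⟩ := exists_chi_two (k := k) (p := p) hX2' hp2
  let ι : D.L →* Φ.Iso := Subgroup.inclusion (inf_le_right : D.L ≤ Φ.Iso)
  have hχ : (χ₀.comp ι).ker = X.subgroupOf D.L := by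
    ext g
    rw [MonoidHom.mem_ker, Subgroup.mem_subgroupOf]
    change χ₀ (ι g) = 1 ↔ _
    rw [← MonoidHom.mem_ker, hχ₀]
    rfl
  set Q₁ : Subgroup D.L := (Q.map X.subtype).subgroupOf D.L with hQ₁
  have hQ₁p : IsPGroup p Q₁ := hQ'.comap_of_injective D.L.subtype D.L.subtype_injective
  have hQH : Q₁ ≤ X.subgroupOf D.L := by
    intro g hg
    obtain ⟨x, -, hx⟩ := Subgroup.mem_subgroupOf.mp hg
    rw [Subgroup.mem_subgroupOf, ← hx]
    exact x.2
  set Q₂ : Subgroup (X.subgroupOf D.L) := Q₁.subgroupOf (X.subgroupOf D.L) with hQ₂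
  have hmap : Q₂.map (X.subgroupOf D.L).subtype = Q₁ := Subgroup.map_subgroupOf_eq_of_le hQH
  have hQ₂p : IsPGroup p Q₂ := hQ₁p.comap_of_injective _ (X.subgroupOf D.L).subtype_injective
  have hker := oneBd_ker (k := k) (p := p) (χ₀.comp ι) hχ (Q := Q₂) hQ₂p
    (by rw [hmap]; exact hL)
  -- the isomorphism
  let f : (X.subgroupOf D.L) →* M :=
    { toFun := fun g => ⟨⟨((g : D.L) : SpecialLinearGroup K E), g.2⟩,
        (hM _).mpr (g : D.L).2⟩
      map_one' := rfl
      map_mul' := fun _ _ => rfl }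
  have hfs : Function.Surjective f := fun m =>
    ⟨⟨⟨((m : X) : SpecialLinearGroup K E), (hM _).mp m.2⟩, (m : X).2⟩, rfl⟩
  have hfi : ∀ x, f x = 1 → x = 1 := by
    intro x hx
    apply Subtype.ext
    apply Subtype.ext
    exact congrArg (fun m : M => ((m : X) : SpecialLinearGroup K E)) hx
  have hfm : Q₂.map f = Q.subgroupOf M := by
    ext m
    constructor
    · rintro ⟨g, hg, rfl⟩
      obtain ⟨q, hq, hqg⟩ := Subgroup.mem_subgroupOf.mp (Subgroup.mem_subgroupOf.mp hg)
      rw [Subgroup.mem_subgroupOf]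
      have h1 : ((f g : M) : X) = q := Subtype.ext hqg.symm
      rw [h1]; exact hq
    · intro hm
      obtain ⟨g, rfl⟩ := hfs m
      refine ⟨g, ?_, rfl⟩
      exact Subgroup.mem_subgroupOf.mpr (Subgroup.mem_subgroupOf.mpr ⟨_, hm, rfl⟩)
  have hfin := oneBd_tr (k := k) (p := p) f hfs hfi hQ₂p hfm hker
  intro e x he hx hex hbr
  obtain ⟨i, h1, h2, h3, h4, h5⟩ := hfin e x he hx hex hbr
  refine ⟨i, h1, h2, h3, h4, h5.trans ?_⟩
  refine Nat.mul_le_mul_right _ (Nat.factorial_le ?_)
  refine le_trans ?_ (hcard.le.trans hQn)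
  have h6 : Nat.card Q₂ = Nat.card Q₁ :=
    Nat.card_congr (Subgroup.subgroupOfEquivOfLe hQH).toEquiv
  rw [h6, hQ₁, Nat.card_congr (Subgroup.subgroupOfEquivOfLe (SDec.Q_le hab')).toEquiv]

end Main

end Vale.Agent.P180.R2.H259.Iso
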