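import Vale.Agent.P180.R2.H259.Iso.F2

/-!
P180: homotheties of order `p` of a selfdual decomposition.
-/

set_option linter.all false

namespace Vale.Agent.P180.R2.H259.Iso

open Module Vale.Agent.P180 Vale.Agent.P180.H768.Gd Vale.Agent.P180.R2.H799
  Vale.Agent.P180.R2.H854 Vale.Agent.P180.R2.H954 Vale.Agent.P180.R2.H954.Hc
  Vale.Agent.P180.R2.H471.He Vale.Agent.P180.R2.H471.Ex Vale.Agent.P180.R2.H259.Exp

variable {K E : Type} [Field K] [AddCommGroup E] [Module K E]

section Dec

variable [FiniteDimensional K E] {Q : Subgroup (SpecialLinearGroup K E)} {D : Dec Q}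

theorem sc_pow (c : Fin D.r → K) (m : ℕ) :
    D.sc Finset.univ c ^ m = D.sc Finset.univ (fun i => c i ^ m) := by
  induction m with
  | zero =>
    rw [pow_zero]
    simp only [pow_zero]
    exact Dec.sc_one.symm
  | succ m ih =>
    rw [pow_succ, ih, ← Dec.sc_mul]
    congr 1
    funext i
    exact (pow_succ _ _).symm

/-- an endomorphism which commutes with a homothety which separates the summand `i` -/
theorem comm_of_sc {c : Fin D.r → K} {i : Fin D.r} (hc : ∀ l, l ≠ i → c l ≠ c i) {g : End K E}
    (hg : g * D.sc Finset.univ c = D.sc Finset.univ c * g) : g * D.e i = D.e i * g := by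
  have h1 : ∀ l, l ≠ i → D.e l * (g * D.e i) = 0 := by
    intro l hl
    have h2 : D.e l * (g * D.sc Finset.univ c) * D.e i =
        D.e l * (D.sc Finset.univ c * g) * D.e i := by rw [hg]
    have h3 : D.e l * (g * D.sc Finset.univ c) * D.e i = c i • (D.e l * (g * D.e i)) := by
      rw [mul_assoc, mul_assoc, Dec.sc_mul_e, mul_smul_comm, mul_smul_comm]
    have h4 : D.e l * (D.sc Finset.univ c * g) * D.e i = c l • (D.e l * (g * D.e i)) := by
      rw [← mul_assoc, Dec.e_mul_sc, smul_mul_assoc, smul_mul_assoc, mul_assoc]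
    rw [h3, h4, ← sub_eq_zero, ← sub_smul] at h2
    exact (smul_eq_zero.mp h2).resolve_left (sub_ne_zero.mpr (hc l hl).symm)
  have h2 : ∀ l, l ≠ i → D.e i * g * D.e l = 0 := by
    intro l hl
    have h2 : D.e i * (g * D.sc Finset.univ c) * D.e l =
        D.e i * (D.sc Finset.univ c * g) * D.e l := by rw [hg]
    have h3 : D.e i * (g * D.sc Finset.univ c) * D.e l = c l • (D.e i * g * D.e l) := by
      rw [mul_assoc, mul_assoc, Dec.sc_mul_e, mul_smul_comm, mul_smul_comm, mul_assoc]
    have h4 : D.e i * (D.sc Finset.univ c * g) * D.e l = c i • (D.e i * g * D.e l) := by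
      rw [← mul_assoc, Dec.e_mul_sc, smul_mul_assoc, smul_mul_assoc]
    rw [h3, h4, ← sub_eq_zero, ← sub_smul] at h2
    exact (smul_eq_zero.mp h2).resolve_left (sub_ne_zero.mpr (hc l hl))
  have e1 : g * D.e i = D.e i * (g * D.e i) := by
    calc g * D.e i = (∑ l, D.e l) * (g * D.e i) := by rw [D.sum, one_mul]
      _ = D.e i * (g * D.e i) := by
        rw [Finset.sum_mul, Finset.sum_eq_single i]
        · intro l _ hl; exact h1 l hl
        · intro h; exact absurd (Finset.mem_univ i) h
  have e2 : D.e i * g = D.e i * g * D.e i := by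
    calc D.e i * g = D.e i * g * ∑ l, D.e l := by rw [D.sum, mul_one]
      _ = D.e i * g * D.e i := by
        rw [Finset.mul_sum, Finset.sum_eq_single i]
        · intro l _ hl; exact h2 l hl
        · intro h; exact absurd (Finset.mem_univ i) h
  rw [e1, e2, mul_assoc]

/-- if `g` commutes with all but one of the projections, then with all -/
theorem comm_last {i : Fin D.r} {g : End K E} (h : ∀ l, l ≠ i → g * D.e l = D.e l * g) :
    g * D.e i = D.e i * g := by
  have h1 : D.e i = 1 - ∑ l ∈ Finset.univ.erase i, D.e l := by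
    rw [eq_sub_iff_add_eq, ← D.sum]
    exact Finset.add_sum_erase _ _ (Finset.mem_univ i)
  rw [h1, mul_sub, sub_mul, mul_one, one_mul, Finset.mul_sum, Finset.sum_mul]
  congr 1
  exact Finset.sum_congr rfl fun l hl => h l (Finset.ne_of_mem_erase hl)

/-- the number of summands is at most the order of the group if the projections are linear
combinations of its elements -/
theorem r_le_card [Finite Q] (h : ∀ i, D.e i ∈ Submodule.span K
    (Set.range fun q : Q => toEnd (q : SpecialLinearGroup K E))) : D.r ≤ Nat.card Q := by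
  classical
  have _ := Fintype.ofFinite Q
  set W := Submodule.span K (Set.range fun q : Q => toEnd (q : SpecialLinearGroup K E)) with hW
  have hli : LinearIndependent K (fun i : Fin D.r => (⟨D.e i, h i⟩ : W)) := by
    rw [Fintype.linearIndependent_iff]
    intro c hc i
    have h1 : ∑ l, c l • D.e l = 0 := by
      have := congrArg (Submodule.subtype W) hc
      rw [map_sum, map_zero] at this
      exact this
    have h4 := congrArg (fun y => D.e i * y) h1
    simp only [mul_zero, Finset.mul_sum, mul_smul_comm] at h4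
    rw [Finset.sum_eq_single i] at h4
    · rw [D.idem] at h4
      exact (smul_eq_zero.mp h4).resolve_right (D.ne i)
    · intro l _ hl
      rw [D.orth i l hl.symm, smul_zero]
    · intro h; exact absurd (Finset.mem_univ i) h
  have hfin : Module.Finite K W := by
    rw [hW]
    exact Module.Finite.span_of_finite K (Set.finite_range _)
  have h4 := hli.fintype_card_le_finrank
  rw [Fintype.card_fin] at h4
  have h5 : finrank K W ≤ Fintype.card Q := by
    exact finrank_range_le_card (R := K) (fun q : Q => toEnd (q : SpecialLinearGroup K E))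
  rw [Nat.card_eq_fintype_card]
  exact h4.trans h5

end Dec

variable [Finite K] [FiniteDimensional K E]
variable {Φ : HForm K E} {Q : Subgroup (SpecialLinearGroup K E)} {D : SDec Φ Q}

theorem adj_sc (c : Fin D.r → K) :
    Φ.adj (D.sc Finset.univ c) = D.sc Finset.univ (fun i => Φ.θ (c (Fin.rev i))) := by
  rw [Dec.sc_univ, Dec.sc_univ, SDec.adj_sum]
  refine Fintype.sum_equiv Fin.revPerm _ _ fun i => ?_
  rw [Φ.adj_smul, D.adj_e, Fin.revPerm_apply, Fin.rev_rev]

/-- homotheties of order `p` -/
theorem exists_z {p : ℕ} (hp : p.Prime) {c : Fin D.r → K} (hc : ∀ i, c i ^ p = 1)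
    (hcθ : ∀ i, Φ.θ (c (Fin.rev i)) * c i = 1)
    (hlin : ∀ j : ℕ, (∀ c : K, Φ.θ c = c ^ (ringChar K ^ j)) → ¬ p ∣ ringChar K ^ j + 1) :
    ∃ z ∈ Φ.Iso, z ^ p = 1 ∧ toEnd z = D.sc Finset.univ c := by
  obtain ⟨j, hj⟩ := exists_frobK Φ.θ
  have hpow : D.sc Finset.univ c ^ p = 1 := by
    rw [sc_pow]
    simp only [hc]
    exact Dec.sc_one
  have hadj : Φ.adj (D.sc Finset.univ c) * D.sc Finset.univ c = 1 := by
    rw [adj_sc, ← Dec.sc_mul]
    simp only [hcθ]
    exact Dec.sc_one
  have hdet : LinearMap.det (D.sc Finset.univ c) = 1 := by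
    set δ := LinearMap.det (D.sc Finset.univ c) with hδ
    have h1 : δ ^ p = 1 := by
      rw [hδ, ← map_pow, hpow, map_one]
    have h2 : δ ^ (ringChar K ^ j + 1) = 1 := by
      have h3 := congrArg LinearMap.det hadj
      rw [map_mul, det_adj, hj, ← pow_succ, map_one] at h3
      exact h3
    have g1 : orderOf δ = 1 := by
      refine Nat.eq_one_of_dvd_coprimes (a := p) (b := ringChar K ^ j + 1) ?_
        (orderOf_dvd_of_pow_eq_one h1) (orderOf_dvd_of_pow_eq_one h2)
      exact (Nat.Prime.coprime_iff_not_dvd hp).mpr (hlin j hj)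
    exact orderOf_eq_one_iff.mp g1
  refine ⟨mkSL _ hdet, ?_, ?_, toEnd_mkSL _ hdet⟩
  · rw [Φ.mem_Iso_iff, toEnd_mkSL]
    exact hadj
  · apply toEnd_injective
    have h1 : ∀ m : ℕ, toEnd ((mkSL _ hdet : SpecialLinearGroup K E) ^ m) =
        D.sc Finset.univ c ^ m := by
      intro m
      induction m with
      | zero => rw [pow_zero, pow_zero, toEnd_one]
      | succ m ih => rw [pow_succ, pow_succ, toEnd_mul, ih, toEnd_mkSL]
    rw [h1, hpow, toEnd_one]

end Vale.Agent.P180.R2.H259.Iso
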