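import Vale.Agent.P180.R2.H259.Iso.F3
import Vale.Agent.P180.R2.H259.Exp.ZLev
import Vale.Agent.P180.R2.H799.BW3

/-!
P180: **one small idempotent for the blocks of the isometry groups in unbounded dimension**, for
abelian defect groups, if the field contains a `p`-th root of unity fixed by the automorphism.
-/

set_option linter.all false

namespace Vale.Agent.P180.R2.H259.Iso

open Module Vale.Agent.P180 Vale.Agent.P180.H768.Gd Vale.Agent.P180.R2.H799
  Vale.Agent.P180.R2.H799.BN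
  Vale.Agent.P180.R2.H854 Vale.Agent.P180.R2.H954 Vale.Agent.P180.R2.H954.Hc
  Vale.Agent.P180.R2.H471.He Vale.Agent.P180.R2.H471.Ex Vale.Agent.P180.R2.H259.Exp
open Vale.Agent.P180.R2.H471.Hc (OneBd)
open Vale.Agent.P180.R2.H799.BV (glB)

universe u

section Cz

variable {K : Type} [Field K] {r : ℕ}

/-- the homothety with the eigenvalues `ζ` and `ζ⁻¹` on a pair of dual summands -/
noncomputable def cz (ζ : K) (i : Fin r) (l : Fin r) : K :=
  if l = i then ζ else if l = Fin.rev i then ζ⁻¹ else 1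

theorem cz_self (ζ : K) (i : Fin r) : cz ζ i i = ζ := if_pos rfl

theorem cz_rev (ζ : K) {i : Fin r} (hi : Fin.rev i ≠ i) : cz ζ i (Fin.rev i) = ζ⁻¹ := by
  unfold cz
  rw [if_neg hi, if_pos rfl]

theorem cz_ne (ζ : K) {i l : Fin r} (h1 : l ≠ i) (h2 : l ≠ Fin.rev i) : cz ζ i l = 1 := by
  unfold cz
  rw [if_neg h1, if_neg h2]

theorem cz_pow {ζ : K} {p : ℕ} (hζ : ζ ^ p = 1) (i l : Fin r) : cz ζ i l ^ p = 1 := by
  unfold cz
  split_ifs
  · exact hζ
  · rw [inv_pow, hζ, inv_one]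
  · exact one_pow p

theorem cz_theta {ζ : K} (hζ0 : ζ ≠ 0) {θ : K →+* K} (hθ : θ ζ = ζ) {i : Fin r}
    (hi : Fin.rev i ≠ i) (l : Fin r) : θ (cz ζ i (Fin.rev l)) * cz ζ i l = 1 := by
  by_cases h1 : l = i
  · subst h1
    rw [cz_rev ζ hi, cz_self, map_inv₀, hθ, inv_mul_cancel₀ hζ0]
  by_cases h2 : l = Fin.rev i
  · subst h2
    rw [Fin.rev_rev, cz_rev ζ hi, cz_self, hθ, mul_inv_cancel₀ hζ0]
  have h3 : Fin.rev l ≠ i := fun h => h2 (by rw [← h, Fin.rev_rev])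
  have h4 : Fin.rev l ≠ Fin.rev i := fun h => h1 (Fin.rev_injective h)
  rw [cz_ne ζ h3 h4, cz_ne ζ h1 h2, map_one, one_mul]

theorem sq_ne_one {ζ : K} {p : ℕ} (hp : p.Prime) (hp2 : p ≠ 2) (hζ : ζ ^ p = 1) (hζ1 : ζ ≠ 1) :
    ζ ≠ ζ⁻¹ := by
  intro h
  have : Fact p.Prime := ⟨hp⟩
  have hζ0 : ζ ≠ 0 := by
    rintro rfl
    rw [zero_pow hp.ne_zero] at hζ
    exact zero_ne_one hζ
  have hord : orderOf ζ = p := orderOf_eq_prime hζ hζ1
  have h2 : ζ ^ 2 = 1 := by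
    rw [pow_two]
    nth_rewrite 2 [h]
    exact mul_inv_cancel₀ hζ0
  have h3 := orderOf_dvd_of_pow_eq_one h2
  rw [hord] at h3
  rcases (Nat.dvd_prime Nat.prime_two).mp h3 with h6 | h6
  · exact hp.one_lt.ne' h6
  · exact hp2 h6

theorem cz_sep {ζ : K} {p : ℕ} (hp : p.Prime) (hp2 : p ≠ 2) (hζ : ζ ^ p = 1) (hζ1 : ζ ≠ 1)
    {i l : Fin r} (hl : l ≠ i) : cz ζ i l ≠ cz ζ i i := by
  rw [cz_self]
  unfold cz
  rw [if_neg hl]
  split_ifs
  · exact (sq_ne_one hp hp2 hζ hζ1).symm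
  · exact hζ1.symm

theorem rev_unique {i l : Fin r} (hi : Fin.rev i = i) (hl : Fin.rev l = l) : i = l := by
  apply Fin.ext
  have h1 := congrArg Fin.val hi
  have h2 := congrArg Fin.val hl
  rw [Fin.val_rev] at h1 h2
  have h3 := i.2
  have h4 := l.2
  omega

end Cz

variable {K E : Type} [Field K] [AddCommGroup E] [Module K E] [Finite K] [FiniteDimensional K E]
variable {Φ : HForm K E} {X : Subgroup (SpecialLinearGroup K E)} {Q : Subgroup X}

theorem comm_map (hab : ∀ x ∈ Q, ∀ y ∈ Q, x * y = y * x) :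
    ∀ x ∈ Q.map X.subtype, ∀ y ∈ Q.map X.subtype, x * y = y * x := by
  rintro _ ⟨x, hx, rfl⟩ _ ⟨y, hy, rfl⟩
  exact congrArg Subtype.val (hab x hx y hy)

section Mxp

variable [Finite X] {p : ℕ} (hp : p.Prime) (hp2 : p ≠ 2) (hX2 : X.relIndex Φ.Iso ∣ 2)
  {ζ : K} (hζ : ζ ^ p = 1) (hζ1 : ζ ≠ 1) (hζθ : Φ.θ ζ = ζ) (hMx : Mx p Q)
  (D : SDec Φ (Q.map X.subtype))

include hp hp2 hX2 hζ hζ1 hζθ hMx

/-- the homotheties of order `p` are in `Q` -/
theorem exists_zQ {i : Fin D.r} (hi : Fin.rev i ≠ i) :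
    ∃ z ∈ Q, z ^ p = 1 ∧ toEnd (z : SpecialLinearGroup K E) = D.sc Finset.univ (cz ζ i) := by
  have hζ0 : ζ ≠ 0 := by
    rintro rfl
    rw [zero_pow hp.ne_zero] at hζ
    exact zero_ne_one hζ
  have hab' := comm_map hMx.ab
  obtain ⟨z₀, hzI, hzp, hzE⟩ := exists_z (D := D) hp (cz_pow hζ i) (cz_theta hζ0 hζθ hi)
    (lin_of_root hp hp2 hζ hζ1 hζθ)
  have hzX : z₀ ∈ X := mem_of_relIndex_dvd_two hX2 hzI (hp.odd_of_ne_two hp2) hzp
  have hcomm : ∀ y : X, (y : SpecialLinearGroup K E) ∈ D.toDec.L →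
      (⟨z₀, hzX⟩ : X) * y = y * ⟨z₀, hzX⟩ := by
    intro y hy
    apply Subtype.ext
    apply toEnd_injective
    change toEnd (z₀ * (y : SpecialLinearGroup K E)) = toEnd ((y : SpecialLinearGroup K E) * z₀)
    rw [toEnd_mul, toEnd_mul, hzE]
    exact (Dec.sc_comm hy _).symm
  have hQL : ∀ y : X, y ∈ Q → (y : SpecialLinearGroup K E) ∈ D.toDec.L := fun y hy =>
    D.toDec.Q_le hab' ⟨y, hy, rfl⟩
  have hCL : ∀ y : X, y ∈ Ce Q → (y : SpecialLinearGroup K E) ∈ D.toDec.L := by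
    intro y hy
    refine Dec.cent_le (Subgroup.mem_centralizer_iff.mpr ?_)
    rintro _ ⟨q, hq, rfl⟩
    exact congrArg Subtype.val (mem_Ce.mp hy q hq)
  refine ⟨⟨z₀, hzX⟩, ?_, Subtype.ext hzp, hzE⟩
  refine hMx.max _ ?_ ?_ ⟨1, ?_⟩
  · exact mem_Ce.mpr fun y hy => (hcomm y (hQL y hy)).symm
  · intro y hy
    exact hcomm y (hCL y hy)
  · rw [pow_one]
    exact Subtype.ext hzp

/-- the elements of order `p` of `Q` act as scalars on the summands -/
theorem scal_of_pow {y : X} (hy : y ∈ Q) (hyp : y ^ p = 1) (i : Fin D.r) :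
    ∃ c : K, toEnd (y : SpecialLinearGroup K E) * D.e i = c • D.e i := by
  by_cases hi : Fin.rev i = i
  · have h0 : toEnd (y : SpecialLinearGroup K E) * D.e i = D.e i := D.triv i hi _ ⟨y, hy, rfl⟩
    exact ⟨1, by rw [h0, one_smul]⟩
  obtain ⟨z, hzQ, hzp, hzE⟩ := exists_zQ hp hp2 hX2 hζ hζ1 hζθ hMx D hi
  obtain ⟨F, _, _, χ, hχ⟩ := D.cyc i
  let ι : Q →* Q.map X.subtype := (Subgroup.subtype X).subgroupMap Q
  have hι : ∀ q : Q, ((ι q : Q.map X.subtype) : SpecialLinearGroup K E) =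
      ((q : X) : SpecialLinearGroup K E) := fun q => rfl
  set a : Fˣ := χ (ι ⟨z, hzQ⟩) with ha
  set b : Fˣ := χ (ι ⟨y, hy⟩) with hb
  have hze : toEnd (z : SpecialLinearGroup K E) * D.e i = ζ • D.e i := by
    rw [hzE, Dec.sc_mul_e, cz_self]
  have hap : a ^ p = 1 := by
    have h1 : (⟨z, hzQ⟩ : Q) ^ p = 1 := Subtype.ext hzp
    rw [ha, ← map_pow, ← map_pow, h1, map_one, map_one]
  have hbp : b ^ p = 1 := by
    have h1 : (⟨y, hy⟩ : Q) ^ p = 1 := Subtype.ext hyp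
    rw [hb, ← map_pow, ← map_pow, h1, map_one, map_one]
  have ha1 : a ≠ 1 := by
    intro h
    have h1 : toEnd (z : SpecialLinearGroup K E) * D.e i = D.e i := (hχ _).mp h
    rw [hze] at h1
    have h2 : (ζ - 1) • D.e i = 0 := by rw [sub_smul, h1, one_smul, sub_self]
    rcases smul_eq_zero.mp h2 with h3 | h3
    · exact hζ1 (sub_eq_zero.mp h3)
    · exact D.ne i h3
  have : Fact p.Prime := ⟨hp⟩
  have hord : orderOf a = p := orderOf_eq_prime hap ha1
  have hprim : IsPrimitiveRoot (a : F) p := by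
    rw [IsPrimitiveRoot.coe_units_iff, ← hord]
    exact IsPrimitiveRoot.orderOf a
  obtain ⟨t, -, ht⟩ := hprim.eq_pow_of_pow_eq_one (ξ := (b : F)) (by
    rw [← Units.val_pow_eq_pow_val, hbp, Units.val_one])
  have hab2 : b = a ^ t := Units.ext (by rw [Units.val_pow_eq_pow_val]; exact ht.symm)
  have h1 : χ (ι (⟨y, hy⟩ * (⟨z, hzQ⟩ ^ t)⁻¹)) = 1 := by
    rw [map_mul, map_mul, map_inv, map_inv, map_pow, map_pow, ← ha, ← hb, hab2, mul_inv_cancel]
  have h2 : toEnd (((y * (z ^ t)⁻¹ : X)) : SpecialLinearGroup K E) * D.e i = D.e i :=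
    (hχ _).mp h1
  refine ⟨ζ ^ t, ?_⟩
  have h3 : toEnd ((z ^ t : X) : SpecialLinearGroup K E) * D.e i = ζ ^ t • D.e i :=
    scal_pow (D := D.toDec) hze t
  have h4 : toEnd (y : SpecialLinearGroup K E) =
      toEnd (((y * (z ^ t)⁻¹ : X)) : SpecialLinearGroup K E) *
        toEnd ((z ^ t : X) : SpecialLinearGroup K E) := by
    rw [← toEnd_mul]
    congr 1
    change (y : SpecialLinearGroup K E) = ((y * (z ^ t)⁻¹ * z ^ t : X) : SpecialLinearGroup K E)
    rw [inv_mul_cancel_right]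
  rw [h4, mul_assoc, h3, mul_smul_comm, h2]

/-- **The centraliser of the elements of order `p`.** -/
theorem mem_Ce_Omp (hXI : X ≤ Φ.Iso) (x : X) :
    x ∈ Ce (Omp p Q hMx.ab) ↔ (x : SpecialLinearGroup K E) ∈ D.L := by
  constructor
  · intro hx
    have h1 : ∀ i : Fin D.r, Fin.rev i ≠ i →
        toEnd (x : SpecialLinearGroup K E) * D.e i = D.e i * toEnd (x : SpecialLinearGroup K E) := by
      intro i hi
      obtain ⟨z, hzQ, hzp, hzE⟩ := exists_zQ hp hp2 hX2 hζ hζ1 hζθ hMx D hi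
      refine comm_of_sc (D := D.toDec) (c := cz ζ i) (fun l hl => cz_sep hp hp2 hζ hζ1 hl) ?_
      rw [← hzE, ← toEnd_mul, ← toEnd_mul]
      congr 1
      exact (congrArg Subtype.val (mem_Ce.mp hx z ⟨hzQ, hzp⟩)).symm
    refine ⟨fun i => ?_, hXI x.2⟩
    by_cases hi : Fin.rev i = i
    · exact comm_last fun l hl => h1 l fun h => hl (rev_unique h hi)
    · exact h1 i hi
  · intro hx
    refine mem_Ce.mpr fun y hy => ?_
    apply Subtype.ext
    exact comm_of_scal (D := D.toDec) (scal_of_pow hp hp2 hX2 hζ hζ1 hζθ hMx D hy.1 hy.2) hx.1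

/-- the number of summands -/
theorem r_le [Finite Q] : D.r ≤ Nat.card Q := by
  classical
  have hcard : Nat.card (Q.map X.subtype) = Nat.card Q :=
    (Nat.card_congr (Q.equivMapOfInjective _ X.subtype_injective).toEquiv).symm
  have hfin : Finite (Q.map X.subtype) :=
    Finite.of_equiv _ (Q.equivMapOfInjective _ X.subtype_injective).toEquiv
  rw [← hcard]
  set W := Submodule.span K (Set.range fun q : Q.map X.subtype =>
    toEnd (q : SpecialLinearGroup K E)) with hW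
  have hmem : ∀ q : X, q ∈ Q → toEnd (q : SpecialLinearGroup K E) ∈ W := fun q hq =>
    Submodule.subset_span ⟨⟨q, ⟨q, hq, rfl⟩⟩, rfl⟩
  have h1 : ∀ i : Fin D.r, Fin.rev i ≠ i → D.e i ∈ W := by
    intro i hi
    obtain ⟨z, hzQ, hzp, hzE⟩ := exists_zQ hp hp2 hX2 hζ hζ1 hζθ hMx D hi
    have hne : (ζ - 1) * (ζ - ζ⁻¹) ≠ 0 :=
      mul_ne_zero (sub_ne_zero.mpr hζ1) (sub_ne_zero.mpr (sq_ne_one hp hp2 hζ hζ1))
    have hzz : toEnd ((z * z : X) : SpecialLinearGroup K E) =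
        toEnd (z : SpecialLinearGroup K E) * toEnd (z : SpecialLinearGroup K E) :=
      toEnd_mul _ _
    obtain ⟨κ, hκ⟩ : ∃ κ, κ = (ζ - 1) * (ζ - ζ⁻¹) := ⟨_, rfl⟩
    rw [← hκ] at hne
    have h2 : κ • D.e i = toEnd ((z * z : X) : SpecialLinearGroup K E) -
        (1 + ζ⁻¹) • toEnd (z : SpecialLinearGroup K E) +
        ζ⁻¹ • toEnd ((1 : X) : SpecialLinearGroup K E) := by
      apply Dec.ext_e (D := D.toDec)
      intro l
      have h3 : toEnd ((1 : X) : SpecialLinearGroup K E) = 1 := toEnd_one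
      have hL : (κ • D.e i) * D.e l = κ • (D.e i * D.e l) := smul_mul_assoc _ _ _
      have hA : D.sc Finset.univ (cz ζ i) * D.sc Finset.univ (cz ζ i) * D.e l =
          (cz ζ i l * cz ζ i l) • D.e l := by
        rw [mul_assoc, Dec.sc_mul_e, mul_smul_comm, Dec.sc_mul_e, smul_smul]
      have hB : ((1 + ζ⁻¹) • D.sc Finset.univ (cz ζ i)) * D.e l =
          ((1 + ζ⁻¹) * cz ζ i l) • D.e l := by
        rw [smul_mul_assoc, Dec.sc_mul_e, smul_smul]
      have hC : (ζ⁻¹ • (1 : End K E)) * D.e l = ζ⁻¹ • D.e l := by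
        rw [smul_mul_assoc, one_mul]
      rw [hzz, hzE, h3, hL, add_mul, sub_mul, hA, hB, hC, ← sub_smul, ← add_smul]
      by_cases hl : l = i
      · subst hl
        rw [D.idem, cz_self, hκ]
        congr 1
        ring
      · rw [D.orth i l (Ne.symm hl), smul_zero]
        by_cases hl' : l = Fin.rev i
        · subst hl'
          rw [cz_rev ζ hi]
          have h5 : ζ⁻¹ * ζ⁻¹ - (1 + ζ⁻¹) * ζ⁻¹ + ζ⁻¹ = 0 := by ring
          rw [h5, zero_smul]
        · rw [cz_ne ζ hl hl']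
          have h5 : (1 : K) * 1 - (1 + ζ⁻¹) * 1 + ζ⁻¹ = 0 := by ring
          rw [h5, zero_smul]
    have h3 : D.e i = κ⁻¹ • (κ • D.e i) := by
      rw [smul_smul, inv_mul_cancel₀ hne, one_smul]
    rw [h3, h2]
    exact W.smul_mem _ (W.add_mem (W.sub_mem (hmem _ (Q.mul_mem hzQ hzQ))
      (W.smul_mem _ (hmem z hzQ))) (W.smul_mem _ (hmem 1 Q.one_mem)))
  refine r_le_card (D := D.toDec) fun i => ?_
  by_cases hi : Fin.rev i = i
  · have h2 : D.e i = 1 - ∑ l ∈ Finset.univ.erase i, D.e l := by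
      rw [eq_sub_iff_add_eq, ← D.sum]
      exact Finset.add_sum_erase _ _ (Finset.mem_univ i)
    rw [h2]
    refine W.sub_mem ?_ (W.sum_mem fun l hl => h1 l fun h => ?_)
    · have h3 := hmem 1 Q.one_mem
      have h4 : toEnd ((1 : X) : SpecialLinearGroup K E) = 1 := toEnd_one
      rwa [h4] at h3
    · exact Finset.ne_of_mem_erase hl (rev_unique h hi)
  · exact h1 i hi

end Mxp

/-- the bound for the Levi subgroup -/
noncomputable def isoE (p n : ℕ) : ℕ := n.factorial * (n.factorial * glB p n)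

/-- the bound -/
noncomputable def isoEB (p n : ℕ) : ℕ := n.factorial * (isoE p n * isoE p n)

/-- **The isometry groups**: a small idempotent for the blocks with an abelian defect group, without
a bound for the dimension. -/
theorem oneBd_isoE [Finite (SpecialLinearGroup K E)] {k : Type u} [Field k] [IsAlgClosed k] {p : ℕ}
    [Fact p.Prime] [CharP k p] (hKp : ¬ p ∣ Nat.card K) (hT : Φ.Tr)
    (hnorm : Φ.NormCond) (hXI : X ≤ Φ.Iso) (hX2 : X.relIndex Φ.Iso ∣ 2)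
    (hV : ∀ F, Φ.SD F → VF F ⊓ Φ.Iso ≤ X) (hp2 : Odd p)
    {ζ : K} (hζ : ζ ^ p = 1) (hζ1 : ζ ≠ 1) (hζθ : Φ.θ ζ = ζ) {n : ℕ}
    (hQ : IsPGroup p Q) (hQn : Nat.card Q ≤ n) (hab : ∀ x ∈ Q, ∀ y ∈ Q, x * y = y * x) :
    OneBd k Q (isoEB p n) := by
  classical
  have hp : p.Prime := Fact.out
  have hp2' : p ≠ 2 := by
    rintro rfl
    exact (Nat.not_even_iff_odd.mpr hp2) even_two
  have hlin := lin_of_root hp hp2' hζ hζ1 hζθ
  have hmain := oneBd_hc_iso (k := k) hKp hT hnorm hXI hX2 hV hp2 hζ hζ1 hζθ hQ hab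
    (C := isoE p n) (fun hMx => ?_)
  · intro e x he hx hex hbr
    obtain ⟨i, g1, g2, g3, g4, g5⟩ := hmain e x he hx hex hbr
    exact ⟨i, g1, g2, g3, g4, g5.trans (Nat.mul_le_mul_right _ (Nat.factorial_le hQn))⟩
  · have hQ' : IsPGroup p (Q.map X.subtype) := hQ.map _
    obtain ⟨l, hl⟩ := IsPGroup.iff_card.mp hQ'
    have hcop : (Nat.card K).Coprime (Nat.card (Q.map X.subtype)) := by
      rw [hl]
      exact (Nat.Coprime.pow_left l ((Nat.Prime.coprime_iff_not_dvd hp).mpr hKp)).symm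
    have hle : Q.map X.subtype ≤ Φ.Iso := by
      rintro _ ⟨x, -, rfl⟩
      exact hXI x.2
    obtain ⟨D₀, hD1, hD2⟩ := exists_sdec Φ hp hQ' hcop hle (comm_map hab) hlin
    let D : SDec Φ (Q.map X.subtype) := { D₀ with adj_e := hD1, triv := hD2, le := hle }
    exact oneBd_M (k := k) hXI hX2 hp2' hQ hQn hab D
      ((r_le hp hp2' hX2 hζ hζ1 hζθ hMx D).trans hQn) hlin
      (fun x => mem_Ce_Omp hp hp2' hX2 hζ hζ1 hζθ hMx D hXI x)

end Vale.Agent.P180.R2.H259.Iso
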